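import Vale.Agent.P309.Final

namespace Vale.Agent.Results.P309.Linear

open MeasureTheory Vale.Agent.P309

theorem result : ∀ A : ℕ, ∃ c' : ℝ, 0 < c' ∧ ∃ ε0 : ℝ, 0 < ε0 ∧ ∃ d0 : ℕ, ∀ d ≥ d0, ∀ ε : ℝ,
    0 < ε → ε < ε0 → ∀ M N T : ℕ, M ≤ A * d ^ 2 → N ≤ 2 ^ M →
    ∀ (Ω : Type) [MeasurableSpace Ω] (P : Measure Ω) [IsProbabilityMeasure P] (L : Learner d N Ω),
      2 / 3 ≤ L.success P T ε → c' * d * Real.log (1 / ε) ≤ T := final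

end Vale.Agent.Results.P309.Linear
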